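import Vale.Agent.P070.Final

universe u v w

namespace Vale.Agent.Results.P070.Naimark

/-- A representation is irreducible if it is nonzero and has no closed invariant subspace other
than `0` and the whole space. -/
def IsIrreducibleRep {A : Type} [NonUnitalCStarAlgebra A] {H : Type u} [NormedAddCommGroup H]
    [InnerProductSpace ℂ H] [CompleteSpace H] (π : A →⋆ₙₐ[ℂ] (H →L[ℂ] H)) : Prop :=
  (∃ a : A, π a ≠ 0) ∧
    ∀ K : Submodule ℂ H, IsClosed (K : Set H) → (∀ a : A, ∀ x ∈ K, π a x ∈ K) → K = ⊥ ∨ K = ⊤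

/-- Unitary equivalence of two representations. -/
def UnitarilyEquivalent {A : Type} [NonUnitalCStarAlgebra A]
    {H₁ : Type u} [NormedAddCommGroup H₁] [InnerProductSpace ℂ H₁] [CompleteSpace H₁]
    {H₂ : Type v} [NormedAddCommGroup H₂] [InnerProductSpace ℂ H₂] [CompleteSpace H₂]
    (π₁ : A →⋆ₙₐ[ℂ] (H₁ →L[ℂ] H₁)) (π₂ : A →⋆ₙₐ[ℂ] (H₂ →L[ℂ] H₂)) : Prop :=
  ∃ U : H₁ ≃ₗᵢ[ℂ] H₂, ∀ (a : A) (x : H₁), U (π₁ a x) = π₂ a (U x)

/-- Property (N): nonzero, and any two irreducible representations are unitarily equivalent. -/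
def PropertyN (A : Type) [NonUnitalCStarAlgebra A] : Prop :=
  Nontrivial A ∧
    ∀ (H₁ : Type u) [NormedAddCommGroup H₁] [InnerProductSpace ℂ H₁] [CompleteSpace H₁]
      (H₂ : Type v) [NormedAddCommGroup H₂] [InnerProductSpace ℂ H₂] [CompleteSpace H₂]
      (π₁ : A →⋆ₙₐ[ℂ] (H₁ →L[ℂ] H₁)) (π₂ : A →⋆ₙₐ[ℂ] (H₂ →L[ℂ] H₂)),
      IsIrreducibleRep π₁ → IsIrreducibleRep π₂ → UnitarilyEquivalent π₁ π₂

/-- `A` is star-isomorphic to the algebra of compact operators on `H`. -/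
def IsoToCompacts (A : Type) [NonUnitalCStarAlgebra A] (H : Type w) [NormedAddCommGroup H]
    [InnerProductSpace ℂ H] [CompleteSpace H] : Prop :=
  ∃ φ : A →⋆ₙₐ[ℂ] (H →L[ℂ] H), Function.Injective φ ∧
    Set.range φ = {T : H →L[ℂ] H | IsCompactOperator T}

/-- A counterexample to Naimark's problem, with no set-theoretic hypothesis beyond choice. -/
theorem result :
    ∃ (A : Type) (_ : CStarAlgebra A), PropertyN.{u, v} A ∧
      ∀ (H : Type w) [NormedAddCommGroup H] [InnerProductSpace ℂ H] [CompleteSpace H],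
        ¬ IsoToCompacts A H := by
  obtain ⟨R, iR, τ, I, iI, iW, T, p, X, hτ, hB⟩ := Vale.Agent.P070.exists_tower
  refine ⟨R, iR, ⟨⟨1, 0, fun h => ?_⟩, ?_⟩, ?_⟩
  · have h1 := hτ.map_one
    rw [h, map_zero] at h1
    exact zero_ne_one h1
  · rintro H₁ _ _ _ H₂ _ _ _ π₁ π₂ ⟨⟨a₁, h₁⟩, hi₁⟩ ⟨⟨a₂, h₂⟩, hi₂⟩
    obtain ⟨n₁, ρ₁, hρ₁, e₁⟩ := Vale.Agent.P070.exists_unital π₁ (fun h => h₁ (by rw [h]; rfl)) hi₁
    obtain ⟨n₂, ρ₂, hρ₂, e₂⟩ := Vale.Agent.P070.exists_unital π₂ (fun h => h₂ (by rw [h]; rfl)) hi₂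
    obtain ⟨U, hU⟩ := T.exists_equiv hτ hB hρ₁ hρ₂
    exact ⟨U, fun a x => by rw [← e₁, ← e₂, hU]⟩
  · rintro H _ _ _ ⟨φ, hφ, hr⟩
    exact hB.adm.not_compact φ hφ hr

end Vale.Agent.Results.P070.Naimark
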